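import Mathlib

/-!
P317. Stability of the number of common bases under circuit-hyperplane relaxation.

If every base of `M₂'` is a base of `M₂` or a circuit-hyperplane of `M₂` (for instance `M₂'` is
obtained from `M₂` by relaxing some circuit-hyperplanes), and `M₁` has at least two bases, then
the number of common bases of `(M₁, M₂')` is at most `(1 + r (n - r))` times the number of common
bases of `(M₁, M₂)`.
-/

namespace Vale.Agent.Results.P317.RelaxationStability

open Set

/-- A hyperplane of a matroid: a maximal proper flat. -/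
def IsHyperplane {α : Type*} (M : Matroid α) (H : Set α) : Prop :=
  M.IsFlat H ∧ H ⊂ M.E ∧ ∀ F, M.IsFlat F → H ⊂ F → F = M.E

/-- Exchanging an element of a circuit-hyperplane with an outside element gives a base. -/
lemma exchange_isBase {α : Type*} (M : Matroid α) {X : Set α} (hC : M.IsCircuit X)
    (hH : IsHyperplane M X) {x y : α} (hx : x ∈ X) (hy : y ∈ M.E) (hyX : y ∉ X) :
    M.IsBase (insert y (X \ {x})) := by
  have hI : M.Indep (X \ {x}) := hC.sdiff_singleton_indep hx
  have hcl : M.closure (X \ {x}) = X := by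
    rw [hC.closure_sdiff_singleton_eq x, hH.1.closure]
  have hy' : y ∉ M.closure (X \ {x}) := by rw [hcl]; exact hyX
  have hyX' : y ∉ X \ {x} := fun h => hyX h.1
  have hI' : M.Indep (insert y (X \ {x})) :=
    (hI.insert_indep_iff_of_notMem hyX').mpr ⟨hy, hy'⟩
  have hsub : X ⊆ M.closure (insert y (X \ {x})) := by
    calc X = M.closure (X \ {x}) := hcl.symm
      _ ⊆ M.closure (insert y (X \ {x})) := M.closure_subset_closure (subset_insert _ _)
  have hymem : y ∈ M.closure (insert y (X \ {x})) :=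
    M.mem_closure_of_mem (mem_insert _ _) hI'.subset_ground
  have hss : X ⊂ M.closure (insert y (X \ {x})) :=
    ⟨hsub, fun h => hyX (h hymem)⟩
  have hE : M.closure (insert y (X \ {x})) = M.E := hH.2.2 _ (M.isFlat_closure _) hss
  exact hI'.isBase_of_spanning ((M.spanning_iff_closure_eq hI'.subset_ground).mpr hE)

theorem result {α : Type*} [Finite α] (M₁ M₂ M₂' : Matroid α) (r : ℕ)
    (hE : M₁.E = M₂.E)
    (hr : ∀ B, M₂.IsBase B → B.ncard = r)
    (hrel : ∀ B, M₂'.IsBase B → ¬ M₂.IsBase B → M₂.IsCircuit B ∧ IsHyperplane M₂ B)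
    (htwo : ∃ B B', M₁.IsBase B ∧ M₁.IsBase B' ∧ B ≠ B') :
    {B | M₁.IsBase B ∧ M₂'.IsBase B}.ncard ≤
      (1 + r * (M₂.E.ncard - r)) * {B | M₁.IsBase B ∧ M₂.IsBase B}.ncard := by
  classical
  have := Fintype.ofFinite α
  rcases isEmpty_or_nonempty α with hα | hα
  · obtain ⟨B, B', _, _, hne⟩ := htwo
    exact absurd ((Set.eq_empty_of_isEmpty B).trans (Set.eq_empty_of_isEmpty B').symm) hne
  set CB : Set (Set α) := {B | M₁.IsBase B ∧ M₂.IsBase B} with hCB
  set CB' : Set (Set α) := {B | M₁.IsBase B ∧ M₂'.IsBase B} with hCB'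
  set New : Set (Set α) := {B | M₁.IsBase B ∧ M₂'.IsBase B ∧ ¬ M₂.IsBase B} with hNew
  have hunion : CB' ⊆ CB ∪ New := by
    intro B hB
    by_cases h : M₂.IsBase B
    · exact Or.inl ⟨hB.1, h⟩
    · exact Or.inr ⟨hB.1, hB.2, h⟩
  -- every new common base has a neighbour among the old common bases
  have hnb : ∀ X ∈ New, ∃ t : Set α × α × α, t.1 ∈ CB ∧ t.2.1 ∈ M₂.E \ t.1 ∧ t.2.2 ∈ t.1 ∧
      X = insert t.2.1 (t.1 \ {t.2.2}) := by
    intro X hX
    obtain ⟨hX1, hX2', hX2⟩ := hX
    obtain ⟨hXC, hXH⟩ := hrel X hX2' hX2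
    obtain ⟨B0, B0', hB0, hB0', hne⟩ := htwo
    obtain ⟨B', hB', hB'X⟩ : ∃ B', M₁.IsBase B' ∧ B' ≠ X := by
      by_cases h : B0 = X
      · exact ⟨B0', hB0', fun h' => hne (h.trans h'.symm)⟩
      · exact ⟨B0, hB0, h⟩
    have hnot : ¬ X ⊆ B' := fun h => hB'X (hX1.eq_of_subset_isBase hB' h).symm
    obtain ⟨x, hxX, hxB'⟩ := Set.not_subset.mp hnot
    obtain ⟨y, hy, hbase⟩ := hX1.exchange hB' ⟨hxX, hxB'⟩
    have hyE : y ∈ M₂.E := hE ▸ hB'.subset_ground hy.1
    have hbase2 : M₂.IsBase (insert y (X \ {x})) := exchange_isBase M₂ hXC hXH hxX hyE hy.2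
    have hxy : x ≠ y := fun h => hy.2 (h ▸ hxX)
    refine ⟨(insert y (X \ {x}), x, y), ⟨hbase, hbase2⟩, ⟨hXC.subset_ground hxX, ?_⟩,
      mem_insert _ _, ?_⟩
    · simp only [mem_insert_iff, mem_sdiff, mem_singleton_iff, not_or, not_and, not_not]
      exact ⟨hxy, fun _ => trivial⟩
    · ext z
      simp only [mem_insert_iff, mem_sdiff, mem_singleton_iff]
      constructor
      · intro hz
        by_cases hzx : z = x
        · exact Or.inl hzx
        · exact Or.inr ⟨Or.inr ⟨hz, hzx⟩, fun h => hy.2 (h ▸ hz)⟩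
      · rintro (rfl | ⟨rfl | ⟨hz, _⟩, hz2⟩)
        · exact hxX
        · exact absurd rfl hz2
        · exact hz
  choose! g hg using hnb
  -- the target of the injection
  let CBf : Finset (Set α) := CB.toFinset
  let T : Finset (Σ _ : Set α, α × α) :=
    CBf.sigma (fun B => (M₂.E \ B).toFinset ×ˢ B.toFinset)
  have hTcard : T.card = CB.ncard * ((M₂.E.ncard - r) * r) := by
    rw [Finset.card_sigma]
    have hconst : ∀ B ∈ CBf, ((M₂.E \ B).toFinset ×ˢ B.toFinset).card = (M₂.E.ncard - r) * r := by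
      intro B hB
      have hB' : B ∈ CB := by simpa [CBf] using hB
      rw [Finset.card_product, ← Set.ncard_eq_toFinset_card', ← Set.ncard_eq_toFinset_card',
        hr B hB'.2, Set.ncard_sdiff hB'.2.subset_ground (Set.toFinite B), hr B hB'.2]
    rw [Finset.sum_congr rfl hconst, Finset.sum_const, smul_eq_mul,
      Set.ncard_eq_toFinset_card' CB]
  have hNewle : New.ncard ≤ T.card := by
    rw [Set.ncard_eq_toFinset_card' New]
    apply Finset.card_le_card_of_injOn (fun X => ⟨(g X).1, (g X).2⟩)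
    · intro X hX
      have hX' : X ∈ New := by simpa using hX
      obtain ⟨h1, h2, h3, -⟩ := hg X hX'
      simp only [T, CBf, Finset.coe_sigma, Set.mem_sigma_iff, Finset.coe_product,
        Set.coe_toFinset, Set.mem_prod]
      exact ⟨h1, h2, h3⟩
    · intro X hX Y hY hXY
      have hX' : X ∈ New := by simpa using hX
      have hY' : Y ∈ New := by simpa using hY
      have e1 := (hg X hX').2.2.2
      have e2 := (hg Y hY').2.2.2
      simp only [Sigma.mk.injEq, heq_eq_eq] at hXY
      rw [e1, e2, hXY.1, hXY.2]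
  calc CB'.ncard ≤ (CB ∪ New).ncard := Set.ncard_le_ncard hunion (Set.toFinite _)
    _ ≤ CB.ncard + New.ncard := Set.ncard_union_le _ _
    _ ≤ CB.ncard + CB.ncard * ((M₂.E.ncard - r) * r) := by omega
    _ = (1 + r * (M₂.E.ncard - r)) * CB.ncard := by ring

end Vale.Agent.Results.P317.RelaxationStability
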