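import Vale.Agent.Results.P317.GirthDensity
import Vale.Agent.Results.P317.RelaxationStability

/-!
P317. Two results on the number of common bases of two matroids, in one statement.

(1) Let `M₁`, `M₂` be matroids on the same finite ground set of size `n`, where all bases of `M₂`
have `r` elements and every set with at most `r - k` elements is independent in `M₂`. If `M₁` and
`M₂` have a common base, then every base of `M₁` is within `k` exchanges of a common base, and the
number of bases of `M₁` is at most `∑ i ≤ k, C(r,i) C(n-r,i)` times the number of common bases.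

(2) If every base of `M₂'` is a base of `M₂` or a circuit-hyperplane of `M₂`, and `M₁` has at
least two bases, then the number of common bases of `(M₁, M₂')` is at most `1 + r (n - r)` times
the number of common bases of `(M₁, M₂)`.
-/

namespace Vale.Agent.Results.P317.GirthAndRelaxation

open Vale.Agent.Results.P317.RelaxationStability

universe u

theorem result :
    (∀ (α : Type u) [Finite α] (M₁ M₂ : Matroid α) (r k : ℕ),
      M₁.E = M₂.E →
      (∀ B, M₂.IsBase B → B.ncard = r) →
      (∀ I, I ⊆ M₂.E → I.ncard + k ≤ r → M₂.Indep I) →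
      (∃ B, M₁.IsBase B ∧ M₂.IsBase B) →
      (∀ X, M₁.IsBase X → ∃ B, M₁.IsBase B ∧ M₂.IsBase B ∧ (B \ X).ncard ≤ k) ∧
      {B | M₁.IsBase B}.ncard ≤
        (∑ i ∈ Finset.range (k + 1), r.choose i * (M₂.E.ncard - r).choose i) *
          {B | M₁.IsBase B ∧ M₂.IsBase B}.ncard) ∧
    (∀ (α : Type u) [Finite α] (M₁ M₂ M₂' : Matroid α) (r : ℕ),
      M₁.E = M₂.E →
      (∀ B, M₂.IsBase B → B.ncard = r) →
      (∀ B, M₂'.IsBase B → ¬ M₂.IsBase B → M₂.IsCircuit B ∧ IsHyperplane M₂ B) →
      (∃ B B', M₁.IsBase B ∧ M₁.IsBase B' ∧ B ≠ B') →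
      {B | M₁.IsBase B ∧ M₂'.IsBase B}.ncard ≤
        (1 + r * (M₂.E.ncard - r)) * {B | M₁.IsBase B ∧ M₂.IsBase B}.ncard) :=
  ⟨fun _ _ M₁ M₂ r k hE hr hgirth hne => GirthDensity.result M₁ M₂ r k hE hr hgirth hne,
    fun _ _ M₁ M₂ M₂' r hE hr hrel htwo =>
      RelaxationStability.result M₁ M₂ M₂' r hE hr hrel htwo⟩

end Vale.Agent.Results.P317.GirthAndRelaxation
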