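import Vale.Agent.Lib.P317.Improve
import Vale.Agent.Lib.P317.Count

/-!
P317. Common bases of an arbitrary matroid and a matroid of large girth.

Let `M₁`, `M₂` be matroids on the same finite ground set of size `n`, where all bases of `M₂` have
`r` elements and every set with at most `r - k` elements is independent in `M₂`
(so `k = 0` means `M₂` is uniform and `k = 1` means `M₂` is paving).
If `M₁` and `M₂` have a common base at all, then

* every base `X` of `M₁` is within `k` exchanges of a common base `B` (that is `|B \ X| ≤ k`);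
* consequently the number of bases of `M₁` is at most `∑ i ≤ k, C(r,i) C(n-r,i)` times the
  number of common bases.
-/

namespace Vale.Agent.Results.P317.GirthDensity

open Vale.Agent.Lib.P317

theorem result {α : Type*} [Finite α] (M₁ M₂ : Matroid α) (r k : ℕ)
    (hE : M₁.E = M₂.E)
    (hr : ∀ B, M₂.IsBase B → B.ncard = r)
    (hgirth : ∀ I, I ⊆ M₂.E → I.ncard + k ≤ r → M₂.Indep I)
    (hne : ∃ B, M₁.IsBase B ∧ M₂.IsBase B) :
    (∀ X, M₁.IsBase X → ∃ B, M₁.IsBase B ∧ M₂.IsBase B ∧ (B \ X).ncard ≤ k) ∧
    {B | M₁.IsBase B}.ncard ≤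
      (∑ i ∈ Finset.range (k + 1), r.choose i * (M₂.E.ncard - r).choose i) *
        {B | M₁.IsBase B ∧ M₂.IsBase B}.ncard := by
  have hnear : ∀ X, M₁.IsBase X → ∃ B, M₁.IsBase B ∧ M₂.IsBase B ∧ (B \ X).ncard ≤ k :=
    fun X hX => exists_near_common_base M₁ M₂ r k hE hr hne hX
      (fun I hIX hI => hgirth I (hIX.trans (hE ▸ hX.subset_ground)) hI)
  exact ⟨hnear, card_bases_le M₁ M₂ r k hE hr hnear⟩

end Vale.Agent.Results.P317.GirthDensity
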