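import Mathlib

/-!
P317. Common bases of an arbitrary matroid and a paving matroid.

Let `M₁`, `M₂` be matroids on the same finite ground set of size `n`, where all bases of `M₂` have
`r` elements and `M₂` is paving (every set with fewer than `r` elements is independent in `M₂`).
If `M₁` and `M₂` have a common base at all, then the common bases make up at least a
`1 / (1 + r (n - r))` fraction of the bases of `M₁`.
-/

namespace Vale.Agent.Results.P317.PavingDensity

open Set

/-- In a matroid all of whose bases have `r` elements, an independent set with `r` elements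
is a base. -/
lemma isBase_of_indep_of_ncard {α : Type*} [Finite α] (M : Matroid α) (r : ℕ)
    (hr : ∀ B, M.IsBase B → B.ncard = r) {I : Set α} (hI : M.Indep I) (hIr : I.ncard = r) :
    M.IsBase I := by
  obtain ⟨B, hB, hIB⟩ := hI.exists_isBase_superset
  have : I = B := Set.eq_of_subset_of_ncard_le hIB (by rw [hr B hB, hIr]) (Set.toFinite B)
  rw [this]; exact hB

/-- Exchange into a base: for a base `X` and a non-loop `y ∉ X` (here: `y` lies in a base),
some `x ∈ X` can be swapped for `y`. -/
lemma exists_exchange {α : Type*} (M : Matroid α) {X B₀ : Set α} (hX : M.IsBase X)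
    (hB₀ : M.IsBase B₀) {y : α} (hy : y ∈ B₀) (hyX : y ∉ X) :
    ∃ x ∈ X, M.IsBase (insert y (X \ {x})) := by
  have hyE : y ∈ M.E := hB₀.subset_ground hy
  have hcl : y ∈ M.closure X := by rw [hX.closure_eq]; exact hyE
  have hC : M.IsCircuit (M.fundCircuit y X) := hX.fundCircuit_isCircuit hyE hyX
  have hex : ∃ x ∈ M.fundCircuit y X, x ≠ y := by
    by_contra hcon
    push Not at hcon
    have hsub : M.fundCircuit y X ⊆ {y} := fun z hz => hcon z hz
    have heq : M.fundCircuit y X = {y} :=
      Set.Subset.antisymm hsub (Set.singleton_subset_iff.mpr (M.mem_fundCircuit y X))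
    have hdep : M.Dep {y} := heq ▸ hC.dep
    exact hdep.not_indep (hB₀.indep.subset (Set.singleton_subset_iff.mpr hy))
  obtain ⟨x, hxC, hxy⟩ := hex
  have hxX : x ∈ X := by
    rcases M.fundCircuit_subset_insert y X hxC with h | h
    · exact absurd h hxy
    · exact h
  have hind : M.Indep (insert y X \ {x}) :=
    (hX.indep.mem_fundCircuit_iff hcl hyX).mp hxC
  have hset : insert y X \ {x} = insert y (X \ {x}) := by
    ext z
    simp only [mem_sdiff, mem_insert_iff, mem_singleton_iff]
    constructor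
    · rintro ⟨h1 | h1, h2⟩
      · exact Or.inl h1
      · exact Or.inr ⟨h1, h2⟩
    · rintro (h1 | ⟨h1, h2⟩)
      · exact ⟨Or.inl h1, fun h => hxy (h ▸ h1 ▸ rfl)⟩
      · exact ⟨Or.inr h1, h2⟩
  rw [hset] at hind
  exact ⟨x, hxX, hX.exchange_isBase_of_indep hyX hind⟩

theorem result {α : Type*} [Finite α] (M₁ M₂ : Matroid α) (r : ℕ)
    (hE : M₁.E = M₂.E)
    (hr : ∀ B, M₂.IsBase B → B.ncard = r)
    (hpav : ∀ I, I ⊆ M₂.E → I.ncard < r → M₂.Indep I)
    (hne : ∃ B, M₁.IsBase B ∧ M₂.IsBase B) :
    {B | M₁.IsBase B}.ncard ≤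
      (1 + r * (M₂.E.ncard - r)) * {B | M₁.IsBase B ∧ M₂.IsBase B}.ncard := by
  classical
  have := Fintype.ofFinite α
  obtain ⟨B₀, hB₀1, hB₀2⟩ := hne
  set CB : Set (Set α) := {B | M₁.IsBase B ∧ M₂.IsBase B} with hCB
  set New : Set (Set α) := {B | M₁.IsBase B ∧ ¬ M₂.IsBase B} with hNew
  have hunion : {B | M₁.IsBase B} ⊆ CB ∪ New := by
    intro B hB
    by_cases h : M₂.IsBase B
    · exact Or.inl ⟨hB, h⟩
    · exact Or.inr ⟨hB, h⟩
  -- every base of `M₁` that is not a base of `M₂` has a neighbour among the common bases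
  have hnb : ∀ X ∈ New, ∃ t : Set α × α × α, t.1 ∈ CB ∧ t.2.1 ∈ M₂.E \ t.1 ∧ t.2.2 ∈ t.1 ∧
      X = insert t.2.1 (t.1 \ {t.2.2}) := by
    intro X hX
    obtain ⟨hX1, hX2⟩ := hX
    have hXr : X.ncard = r := (hX1.ncard_eq_ncard_of_isBase hB₀1).trans (hr B₀ hB₀2)
    have hXE : X ⊆ M₂.E := hE ▸ hX1.subset_ground
    have hnot : ¬ B₀ ⊆ M₂.closure X := by
      intro h
      have h1 : M₂.closure B₀ ⊆ M₂.closure X := M₂.closure_subset_closure_of_subset_closure h
      rw [hB₀2.closure_eq] at h1
      have hsp : M₂.Spanning X := (M₂.spanning_iff_ground_subset_closure hXE).mpr h1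
      obtain ⟨B, hB, hBX⟩ := hsp.exists_isBase_subset
      have : B = X := Set.eq_of_subset_of_ncard_le hBX (by rw [hr B hB, hXr]) (Set.toFinite X)
      exact hX2 (this ▸ hB)
    obtain ⟨y, hyB₀, hycl⟩ := Set.not_subset.mp hnot
    have hyX : y ∉ X := fun h => hycl (M₂.subset_closure X hXE h)
    obtain ⟨x, hxX, hbase1⟩ := exists_exchange M₁ hX1 hB₀1 hyB₀ hyX
    have hIlt : (X \ {x}).ncard < r := by
      rw [← hXr]; exact Set.ncard_sdiff_singleton_lt_of_mem hxX (Set.toFinite X)
    have hI : M₂.Indep (X \ {x}) := hpav _ (sdiff_subset.trans hXE) hIlt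
    have hyI : y ∉ M₂.closure (X \ {x}) := fun h => hycl (M₂.closure_subset_closure sdiff_subset h)
    have hyI' : y ∉ X \ {x} := fun h => hyX h.1
    have hyE : y ∈ M₂.E := hB₀2.subset_ground hyB₀
    have hind : M₂.Indep (insert y (X \ {x})) :=
      (hI.insert_indep_iff_of_notMem hyI').mpr ⟨hyE, hyI⟩
    have hcard : (insert y (X \ {x})).ncard = r := by
      rw [Set.ncard_insert_of_notMem hyI' (Set.toFinite _),
        Set.ncard_sdiff_singleton_of_mem hxX, hXr]
      have : 0 < r := by
        rw [← hXr]; exact Set.ncard_pos (Set.toFinite X) |>.mpr ⟨x, hxX⟩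
      omega
    have hbase2 : M₂.IsBase (insert y (X \ {x})) := isBase_of_indep_of_ncard M₂ r hr hind hcard
    have hxy : x ≠ y := fun h => hyX (h ▸ hxX)
    refine ⟨(insert y (X \ {x}), x, y), ⟨hbase1, hbase2⟩, ⟨hXE hxX, ?_⟩,
      mem_insert _ _, ?_⟩
    · simp only [mem_insert_iff, mem_sdiff, mem_singleton_iff, not_or, not_and, not_not]
      exact ⟨hxy, fun _ => trivial⟩
    · ext z
      simp only [mem_insert_iff, mem_sdiff, mem_singleton_iff]
      constructor
      · intro hz
        by_cases hzx : z = x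
        · exact Or.inl hzx
        · exact Or.inr ⟨Or.inr ⟨hz, hzx⟩, fun h => hyX (h ▸ hz)⟩
      · rintro (rfl | ⟨rfl | ⟨hz, _⟩, hz2⟩)
        · exact hxX
        · exact absurd rfl hz2
        · exact hz
  have hNewle : New.ncard ≤ CB.ncard * ((M₂.E.ncard - r) * r) := by
    rcases isEmpty_or_nonempty α with hα | hα
    · have : New = ∅ := by
        ext X
        simp only [hNew, Set.mem_ofPred_eq, mem_empty_iff_false, iff_false, not_and, not_not]
        intro _
        rw [Set.eq_empty_of_isEmpty X, ← Set.eq_empty_of_isEmpty B₀]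
        exact hB₀2
      rw [this, Set.ncard_empty]
      exact Nat.zero_le _
    choose! g hg using hnb
    let CBf : Finset (Set α) := CB.toFinset
    let T : Finset (Σ _ : Set α, α × α) :=
      CBf.sigma (fun B => (M₂.E \ B).toFinset ×ˢ B.toFinset)
    have hTcard : T.card = CB.ncard * ((M₂.E.ncard - r) * r) := by
      rw [Finset.card_sigma]
      have hconst : ∀ B ∈ CBf,
          ((M₂.E \ B).toFinset ×ˢ B.toFinset).card = (M₂.E.ncard - r) * r := by
        intro B hB
        have hB' : B ∈ CB := by simpa [CBf] using hB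
        rw [Finset.card_product, ← Set.ncard_eq_toFinset_card', ← Set.ncard_eq_toFinset_card',
          hr B hB'.2, Set.ncard_sdiff hB'.2.subset_ground (Set.toFinite B), hr B hB'.2]
      rw [Finset.sum_congr rfl hconst, Finset.sum_const, smul_eq_mul,
        Set.ncard_eq_toFinset_card' CB]
    rw [← hTcard, Set.ncard_eq_toFinset_card' New]
    apply Finset.card_le_card_of_injOn (fun X => ⟨(g X).1, (g X).2⟩)
    · intro X hX
      have hX' : X ∈ New := by simpa using hX
      obtain ⟨h1, h2, h3, -⟩ := hg X hX'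
      simp only [T, CBf, Finset.coe_sigma, Set.mem_sigma_iff, Finset.coe_product,
        Set.coe_toFinset, Set.mem_prod]
      exact ⟨h1, h2, h3⟩
    · intro X hX Y hY hXY
      have hX' : X ∈ New := by simpa using hX
      have hY' : Y ∈ New := by simpa using hY
      have e1 := (hg X hX').2.2.2
      have e2 := (hg Y hY').2.2.2
      simp only [Sigma.mk.injEq, heq_eq_eq] at hXY
      rw [e1, e2, hXY.1, hXY.2]
  calc {B | M₁.IsBase B}.ncard ≤ (CB ∪ New).ncard := Set.ncard_le_ncard hunion (Set.toFinite _)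
    _ ≤ CB.ncard + New.ncard := Set.ncard_union_le _ _
    _ ≤ CB.ncard + CB.ncard * ((M₂.E.ncard - r) * r) := by omega
    _ = (1 + r * (M₂.E.ncard - r)) * CB.ncard := by ring

end Vale.Agent.Results.P317.PavingDensity
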